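import Mathlib
import Vale.Agent.P192.KMain
import Vale.Agent.P192.Asm

namespace Vale.Agent.Results.P192.Burnside

/-- There is an infinite periodic group with an ordinary finite presentation: a free group on
finitely many generators modulo the normal closure of finitely many words, which is infinite and
all of whose elements have finite order. -/
theorem result : ∃ (n : ℕ) (R : Finset (FreeGroup (Fin n))),
    Infinite (FreeGroup (Fin n) ⧸ Subgroup.normalClosure (R : Set (FreeGroup (Fin n)))) ∧
    ∀ g : FreeGroup (Fin n) ⧸ Subgroup.normalClosure (R : Set (FreeGroup (Fin n))),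
      ∃ e : ℕ, 0 < e ∧ g ^ e = 1 := by
  obtain ⟨G, _, ⟨n, φ, hφ, s, hs, hsφ⟩, hinf, htor⟩ :=
    Vale.Agent.P192.exists_group _ Vale.Agent.P192.ferry_inf Vale.Agent.P192.ferry_nil
  lift s to Finset (FreeGroup (Fin n)) using hs
  let e : G ≃* FreeGroup (Fin n) ⧸ Subgroup.normalClosure (s : Set (FreeGroup (Fin n))) :=
    (QuotientGroup.quotientKerEquivOfSurjective φ hφ).symm.trans
      (QuotientGroup.quotientMulEquivOfEq hsφ.symm)
  refine ⟨n, s, Infinite.of_injective e e.injective, fun g => ?_⟩
  obtain ⟨m, hm, h⟩ := isOfFinOrder_iff_pow_eq_one.1 (htor (e.symm g))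
  refine ⟨m, hm, e.symm.injective ?_⟩
  rw [map_pow, map_one, h]

end Vale.Agent.Results.P192.Burnside
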